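import Vale.Agent.Lib.P329.Nilp
import Vale.Agent.Lib.P329.ElemPrime
import Vale.Agent.Lib.P329.SymFour
import Vale.Agent.Lib.P329.FourStat
import Vale.Agent.Lib.P329.MetaStat
import Vale.Agent.Lib.P329.UnionAux
import Vale.Agent.Lib.P329.SmallPGroups
import Vale.Agent.Lib.P329.AbelCyclic
import Vale.Agent.Lib.P329.SmallOrders
import Vale.Agent.Lib.P329.TwoValues

namespace Vale.Agent.Results.P329.A0Union

open Vale.Agent.Lib.P329

/-- **Classes of regular languages of generalized star height at most `1`.** Let `α` be a finite
alphabet. A map `φ` from the letters into a monoid `G` is the same thing as a monoid morphism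
from the words over `α` into `G`; it sends the word `x₁ x₂ ... x_k` to
`φ x₁ * φ x₂ * ... * φ x_k`, and the languages recognized by `G` through `φ` are the sets
`{w | (w.map φ).prod ∈ P}`, `P ⊆ G`. Each of the following languages has generalized star
height at most `1`.

(1) Every language recognized by a finite nilpotent group `G` in each of these three cases (the
first three parts of the statement): `G` has class at most three; `G` has class at most four and
its commutator subgroup is abelian; the order of `G` is not divisible by the sixth power of a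
prime (this contains every group of order `p ^ k` with `k ≤ 5`).

(2) Every language recognized by a finite group `G` with a normal subgroup `N` whose elements
commute pairwise such that, for one prime `q`, `g ^ q` and `g * h * g⁻¹ * h⁻¹` lie in `N` for all
`g`, `h`; that is, `N` is abelian and `G / N` is an elementary abelian `q`-group of any rank. This
contains every finite group with an abelian normal subgroup of prime index.

(3) Every language recognized by a group `G` with at most `23` elements through a map `φ` of the
letters, provided that the number of elements of `G` is not `20`, or that no letter is sent to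
an element of order two, or that `φ` takes at most two values `g`, `r` other than the identity.
In particular: every language recognized by a group with at most `23` elements other than `20`,
and every language over an alphabet with at most two letters recognized by any group with at
most `23` elements. (Among the groups of order `20` only the Frobenius group, the group of the
maps `v ↦ l * v + c` of `Z / 5`, needs the proviso.)

(4) Closure under division and finite direct products: every language recognized by a group `G`
that is a quotient (`π` surjective) of a group `H` that embeds (`emb` injective) into a finite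
direct product of finite groups `K i`, each of which is as in (1) (any of the three cases), or as
in (2) (with its own prime `q` and subgroup `N`), or has at most `23` elements and not exactly
`20`, or is isomorphic to the symmetric group `S₄`, the group of all permutations of
`{0, 1, 2, 3}`. In particular every language recognized by `S₄` is covered.

(5) Every language recognized by a finite group `G` with a normal subgroup `N` whose elements
commute pairwise, through a map `φ` that sends every letter into `N` or to one fixed element
`ρ` of `G`. The subgroup generated by `N` and `ρ` is abelian by cyclic with a cyclic quotient of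
arbitrary order.

(6) Scattered subwords: for every word `u` of length at most three and every `m ≥ 1`, the words
in which `u` occurs as a scattered subword a prescribed number of times modulo `m`; the
occurrences are counted by the sets of positions (`w.sublists.count u`). -/
theorem result {α : Type} [Fintype α] [DecidableEq α] :
    (∀ (G : Type) [Group G] [Finite G] [Group.IsNilpotent G], Group.nilpotencyClass G ≤ 3 →
      ∀ (φ : α → G) (P : Set G), GSHLe 1 ({w | (w.map φ).prod ∈ P} : Language α))
    ∧ (∀ (G : Type) [Group G] [Finite G] [Group.IsNilpotent G], Group.nilpotencyClass G ≤ 4 →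
      (∀ x ∈ commutator G, ∀ y ∈ commutator G, x * y = y * x) →
      ∀ (φ : α → G) (P : Set G), GSHLe 1 ({w | (w.map φ).prod ∈ P} : Language α))
    ∧ (∀ (G : Type) [Group G] [Finite G] [Group.IsNilpotent G],
      (∀ p : ℕ, p.Prime → ¬ p ^ 6 ∣ Nat.card G) →
      ∀ (φ : α → G) (P : Set G), GSHLe 1 ({w | (w.map φ).prod ∈ P} : Language α))
    ∧ (∀ (q : ℕ), q.Prime → ∀ (G : Type) [Group G] [Finite G] (N : Subgroup G) [N.Normal],
      (∀ a ∈ N, ∀ b ∈ N, a * b = b * a) → (∀ g : G, g ^ q ∈ N) →
      (∀ g h : G, g * h * g⁻¹ * h⁻¹ ∈ N) → ∀ (φ : α → G) (P : Set G),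
        GSHLe 1 ({w | (w.map φ).prod ∈ P} : Language α))
    ∧ (∀ (G : Type) [Group G] [Finite G], Nat.card G ≤ 23 → ∀ φ : α → G,
      (Nat.card G ≠ 20 ∨ (∀ a, orderOf (φ a) ≠ 2)
        ∨ ∃ g r : G, ∀ a, φ a = 1 ∨ φ a = g ∨ φ a = r) →
      ∀ P : Set G, GSHLe 1 ({w | (w.map φ).prod ∈ P} : Language α))
    ∧ (∀ (ι : Type) [Fintype ι] (K : ι → Type) [∀ i, Group (K i)] [∀ i, Finite (K i)],
      (∀ i, (∃ _ : Group.IsNilpotent (K i), Group.nilpotencyClass (K i) ≤ 3)
        ∨ (∃ _ : Group.IsNilpotent (K i), Group.nilpotencyClass (K i) ≤ 4
            ∧ ∀ x ∈ commutator (K i), ∀ y ∈ commutator (K i), x * y = y * x)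
        ∨ (∃ _ : Group.IsNilpotent (K i), ∀ p : ℕ, p.Prime → ¬ p ^ 6 ∣ Nat.card (K i))
        ∨ (∃ (q : ℕ) (N : Subgroup (K i)), q.Prime ∧ N.Normal
            ∧ (∀ a ∈ N, ∀ b ∈ N, a * b = b * a) ∧ (∀ g : K i, g ^ q ∈ N)
            ∧ (∀ g h : K i, g * h * g⁻¹ * h⁻¹ ∈ N))
        ∨ (Nat.card (K i) ≤ 23 ∧ Nat.card (K i) ≠ 20)
        ∨ Nonempty (K i ≃* Equiv.Perm (Fin 4))) →
      ∀ (G H : Type) [Group G] [Group H] (emb : H →* (∀ i, K i)), Function.Injective emb →
        ∀ π : H →* G, Function.Surjective π → ∀ (φ : α → G) (P : Set G),
          GSHLe 1 ({w | (w.map φ).prod ∈ P} : Language α))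
    ∧ (∀ (G : Type) [Group G] [Finite G] (N : Subgroup G) [N.Normal],
      (∀ a ∈ N, ∀ b ∈ N, a * b = b * a) →
      ∀ (ρ : G) (φ : α → G), (∀ x : α, φ x ∈ N ∨ φ x = ρ) → ∀ P : Set G,
        GSHLe 1 ({w | (w.map φ).prod ∈ P} : Language α))
    ∧ (∀ u : List α, u.length ≤ 3 → ∀ m r : ℕ, 0 < m →
      GSHLe 1 ({w | w.sublists.count u % m = r % m} : Language α)) :=
  ⟨fun _ _ _ _ hG φ P => gsh_class_three hG φ P,
    fun _ _ _ _ hG hmet φ P => gsh_meta_four hG hmet φ P,
    fun _ _ _ _ h6 φ P => gsh_nilpotent_sixth_power_free h6 φ P,
    fun q hq _ _ _ N _ hcomm hpow hab φ P => elem_prime_finite q hq N hcomm hpow hab φ P,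
    fun _ _ _ h23 φ hφ P => gsh_card_le_twenty_three_vals h23 φ hφ P,
    fun _ _ K _ _ hK _ _ _ _ emb hemb π hπ φ P =>
      good_div K (fun i => by
        rcases hK i with ⟨hn, hc⟩ | ⟨hn, hc, hmet⟩ | ⟨hn, h6⟩
          | ⟨q, N, hq, hN, hcomm, hpow, hab⟩ | ⟨h23, h20⟩ | ⟨⟨e⟩⟩
        · exact fun φ P => gsh_class_three hc φ P
        · exact fun φ P => gsh_meta_four hc hmet φ P
        · exact fun φ P => gsh_nilpotent_sixth_power_free h6 φ P
        · exact fun φ P => elem_prime_finite q hq N hcomm hpow hab φ P
        · exact fun φ P => gsh_card_le_twenty_three h23 h20 φ P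
        · exact good_of_mulEquiv e (fun φ P => sym_four φ P)) emb hemb π hπ φ P,
    fun _ _ _ N _ hcomm ρ φ hφ P => abel_cyclic_finite N hcomm ρ φ hφ P,
    fun u hu m r hm => subword_three m hm u hu r⟩

end Vale.Agent.Results.P329.A0Union
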