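import Vale.Agent.Lib.P329.PoCascade
import Vale.Agent.Lib.P329.Nilp

namespace Vale.Agent.Results.P329.A1Closure

open Vale.Agent.Lib.P329

/-- **Every level of the generalized star-height hierarchy is closed under wreath products with
`R`-trivial monoids on the right (and aperiodic monoids on the left).**

Conventions. A map `φ` from a finite alphabet `α` into a monoid `S` is the same thing as a monoid
morphism from the words over `α` into `S`; it sends `x₁ ... x_k` to `φ x₁ * ... * φ x_k`, and the
languages recognized by `S` are the sets `{w | (w.map φ).prod ∈ P}`, `P ⊆ S`. `GSHLe n L` says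
that `L` has generalized star height at most `n`. `WrM X Y` is the wreath product of the monoid
`X` by the monoid `Y`: the pairs `(f, y)` with `f : Y → X` and `y : Y`, multiplied by
`(f, y) * (g, z) = (x ↦ f x * g (x * y), y * z)`. A monoid `Y` is `R`-trivial when
`y * s * t = y` implies `y * s = y`; a monoid `N` is aperiodic when every `x` has
`x ^ k = x ^ (k + 1)` for some `k`.

(1) Let `n` be any natural number, `X` a finite monoid all of whose recognized languages, over
every finite alphabet, have generalized star height at most `n`, `Y` a finite `R`-trivial monoid
and `N` a finite aperiodic monoid. Then every language, over every finite alphabet, recognized by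
a monoid `S` that divides `N ≀ (X ≀ Y)` (`S` is the image under `π` of a monoid `T` embedded by
`emb` in `WrM N (WrM X Y)`) has generalized star height at most `n`.

(2) An instance at level one: for a finite nilpotent group `G` of class at most three, every
language recognized by `WrM N (WrM G Y)` has generalized star height at most `1`.

(3) The automaton form of the step for `Y`. Let `step` be a deterministic automaton on a finite
state set `Q` that is partially ordered (a run that returns to the state in which it started
never left it) and all of whose path languages are star-free. `annot step q₀ w` is the word `w`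
with every letter paired with the state in which the automaton, started in `q₀`, reads it. Then
for every `n` and every language `K` of generalized star height at most `n` over the alphabet
`α × Q`, the language of the words `w` with `annot step q₀ w ∈ K` has generalized star height at
most `n`. -/
theorem result :
    (∀ (n : ℕ) (X Y N : Type) [Monoid X] [Finite X] [Monoid Y] [Finite Y] [Monoid N] [Finite N],
      (∀ y s t : Y, y * s * t = y → y * s = y) →
      (∀ x : N, ∃ k : ℕ, x ^ k = x ^ (k + 1)) →
      (∀ (β : Type) [Fintype β] [DecidableEq β] (ψ : β → X) (P : Set X),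
        GSHLe n ({w | (w.map ψ).prod ∈ P} : Language β)) →
      ∀ (S T : Type) [Monoid S] [Monoid T] (emb : T →* WrM N (WrM X Y)),
      Function.Injective emb → ∀ (π : T →* S), Function.Surjective π →
      ∀ (α : Type) [Fintype α] [DecidableEq α] (φ : α → S) (P : Set S),
        GSHLe n ({w | (w.map φ).prod ∈ P} : Language α))
    ∧ (∀ (G : Type) [Group G] [Finite G] [Group.IsNilpotent G], Group.nilpotencyClass G ≤ 3 →
      ∀ (Y N : Type) [Monoid Y] [Finite Y] [Monoid N] [Finite N],
      (∀ y s t : Y, y * s * t = y → y * s = y) →
      (∀ x : N, ∃ k : ℕ, x ^ k = x ^ (k + 1)) →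
      ∀ (α : Type) [Fintype α] [DecidableEq α] (φ : α → WrM N (WrM G Y))
        (P : Set (WrM N (WrM G Y))),
        GSHLe 1 ({w | (w.map φ).prod ∈ P} : Language α))
    ∧ (∀ (n : ℕ) (α Q : Type) [Fintype Q] (step : Q → α → Q),
      (∀ (q : Q) (u v : List α), (u ++ v).foldl step q = q → u.foldl step q = q) →
      (∀ q q' : Q, GSHLe 0 ({w | w.foldl step q = q'} : Language α)) →
      ∀ (K : Language (α × Q)), GSHLe n K → ∀ q₀ : Q,
        GSHLe n ({w | annot step q₀ w ∈ K} : Language α)) := by
  classical
  refine ⟨?_, ?_, ?_⟩
  · intro n X Y N _ _ _ _ _ _ hY hN hX S T _ _ emb hemb π hπ α _ _ φ P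
    have := Fintype.ofFinite Y
    exact gsh_sandwich n hY hN (fun ψ Q => hX (α × Y) ψ Q) emb hemb π hπ φ P
  · intro G _ _ _ hG Y N _ _ _ _ hY hN α _ _ φ P
    have := Fintype.ofFinite Y
    exact gsh_sandwich 1 hY hN (fun ψ Q => gsh_class_three hG ψ Q) (MonoidHom.id _)
      Function.injective_id (MonoidHom.id _) Function.surjective_id φ P
  · intro n α Q _ step hpo hrun K hK q₀
    exact gsh_annot_po step hpo hrun n K hK q₀

end Vale.Agent.Results.P329.A1Closure
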