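import Vale.Agent.Lib.P329.Nilp
import Vale.Agent.Lib.P329.ElemPrime
import Vale.Agent.Lib.P329.SmallOrders
import Vale.Agent.Lib.P329.OrderTwentyCor

namespace Vale.Agent.Results.P329.A1Core

open Vale.Agent.Lib.P329

/-- **Five classes of regular languages of generalized star height at most `1`.** Let `α` be a
finite alphabet. A map `φ` from the letters into a group `G` is the same thing as a monoid
morphism from the words over `α` into `G`; it sends the word `x₁ x₂ ... x_k` to
`φ x₁ * φ x₂ * ... * φ x_k`, and the languages recognized by `G` through `φ` are the sets
`{w | (w.map φ).prod ∈ P}`, `P ⊆ G`.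

(1) Every language recognized by a finite nilpotent group of class at most three has generalized
star height at most `1`.

(2) Scattered subword counting: for every word `u` of length at most three, every modulus
`m ≥ 1` and every `r`, the language of the words `w` in which `u` occurs as a scattered subword
(a subsequence, the occurrences being counted by their sets of positions) a number of times
congruent to `r` modulo `m` has generalized star height at most `1`. Here `w.sublists` is the
list of all subsequences of `w`, one for each set of positions, and `w.sublists.count u` is the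
number of its entries equal to `u`.

(3) Every language recognized by a finite group `G` with a normal subgroup `N` whose elements
commute pairwise such that, for one prime `q`, `g ^ q` and `g * h * g⁻¹ * h⁻¹` lie in `N` for all
`g`, `h` (that is, `N` is abelian and `G / N` is an elementary abelian `q`-group of any rank) has
generalized star height at most `1`.

(4) Every language recognized by a group with at most `23` elements whose number of elements is
not `20` has generalized star height at most `1`.

(5) If the alphabet consists of at most two letters (every letter equals `a` or `b`), every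
language recognized by a group with at most `23` elements has generalized star height at most
`1`. -/
theorem result {α : Type} [Fintype α] [DecidableEq α] :
    (∀ (G : Type) [Group G] [Finite G] [Group.IsNilpotent G], Group.nilpotencyClass G ≤ 3 →
      ∀ (φ : α → G) (P : Set G), GSHLe 1 ({w | (w.map φ).prod ∈ P} : Language α))
    ∧ (∀ (u : List α), u.length ≤ 3 → ∀ (m r : ℕ), 0 < m →
      GSHLe 1 ({w | w.sublists.count u % m = r % m} : Language α))
    ∧ (∀ (q : ℕ), q.Prime → ∀ (G : Type) [Group G] [Finite G] (N : Subgroup G) [N.Normal],
      (∀ a ∈ N, ∀ b ∈ N, a * b = b * a) → (∀ g : G, g ^ q ∈ N) →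
      (∀ g h : G, g * h * g⁻¹ * h⁻¹ ∈ N) → ∀ (φ : α → G) (P : Set G),
        GSHLe 1 ({w | (w.map φ).prod ∈ P} : Language α))
    ∧ (∀ (G : Type) [Group G] [Finite G], Nat.card G ≤ 23 → Nat.card G ≠ 20 →
      ∀ (φ : α → G) (P : Set G), GSHLe 1 ({w | (w.map φ).prod ∈ P} : Language α))
    ∧ (∀ a b : α, (∀ x : α, x = a ∨ x = b) →
      ∀ (G : Type) [Group G] [Finite G], Nat.card G ≤ 23 →
      ∀ (φ : α → G) (P : Set G), GSHLe 1 ({w | (w.map φ).prod ∈ P} : Language α)) :=
  ⟨fun _ _ _ _ hG φ P => gsh_class_three hG φ P,
    fun u hu m r hm => subword_three m hm u hu r,
    fun q hq _ _ _ N _ hcomm hpow hab φ P => elem_prime_finite q hq N hcomm hpow hab φ P,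
    fun _ _ _ h h20 φ P => gsh_card_le_twenty_three h h20 φ P,
    fun a b hab _ _ _ h φ P => gsh_card_le_twenty_three_two a b hab h φ P⟩

end Vale.Agent.Results.P329.A1Core
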