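import Vale.Agent.Lib.P329.WreathGen
import Vale.Agent.Lib.P329.TwoSided

namespace Vale.Agent.Results.P329.A1PrefixModCount

open Vale.Agent.Lib.P329

/-- **Iterated wreath products (aperiodic) ≀ (abelian group) ≀ (aperiodic), and two-sided modular
counting over aperiodic monoids, have generalized star height at most `1`.** Let `α` be a finite
alphabet. `WrM X Y` is the wreath product of the monoids `X` and `Y`: the pairs `(f, y)` with
`f : Y → X` and `y : Y`, multiplied by `(f, y) * (g, z) = (x ↦ f x * g (x * y), y * z)`. The
languages recognized by a monoid `S` through a map `φ` from the letters to `S` are the sets of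
the words `x₁ ... x_k` with `φ x₁ * ... * φ x_k ∈ P`, `P ⊆ S`.

(1) Let `N₁`, `N₂` be finite aperiodic monoids (every `x` satisfies `x ^ n = x ^ (n + 1)` for
some `n`) and `G` a finite commutative group. Every language recognized by a monoid `S` that is
a quotient (`π` surjective) of a monoid `T` that embeds (`emb` injective) into
`WrM N₁ (WrM G N₂)` has generalized star height at most `1`. (`S = T = WrM N₁ (WrM G N₂)` is
allowed.)

(2) The same for the quotients of submonoids of `WrM G N`, `N` a finite aperiodic monoid.

(3) Two-sided modular counting. Let `φ` be a map from the letters to a finite aperiodic monoid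
`N` and `M ≥ 1`. Let `S i` be finitely many languages of generalized star height at most `1`
that are closed under prepending letters, and `F k` finitely many Boolean functions of the truth
values of the `S i`. For a word `w`, a letter `b`, `n ∈ N` and a condition `C` on words,
`tcount φ n b C w` is the number of factorizations `w = u b v` such that the image of `u` in `N`
is `n` and `v` satisfies `C`. Then every language whose membership depends only on the image of
`w` in `N` and on the numbers `tcount φ n b (F k of the S i) w` modulo `M` (for all `k`, `n`,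
`b`) has generalized star height at most `1`. With the condition that is always true this is
the counting of the factorizations `w = u b v` with a condition on `u` alone. -/
theorem result {α : Type} [Fintype α] [DecidableEq α] :
    (∀ (N₁ N₂ : Type) [Monoid N₁] [Finite N₁] [Monoid N₂] [Finite N₂],
      (∀ x : N₁, ∃ n : ℕ, x ^ n = x ^ (n + 1)) → (∀ x : N₂, ∃ n : ℕ, x ^ n = x ^ (n + 1)) →
      ∀ (G : Type) [CommGroup G] [Finite G] (S T : Type) [Monoid S] [Monoid T]
        (emb : T →* WrM N₁ (WrM G N₂)), Function.Injective emb →
        ∀ π : T →* S, Function.Surjective π → ∀ (φ : α → S) (P : Set S),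
          GSHLe 1 ({w | (w.map φ).prod ∈ P} : Language α))
    ∧ (∀ (N : Type) [Monoid N] [Finite N], (∀ x : N, ∃ n : ℕ, x ^ n = x ^ (n + 1)) →
      ∀ (G : Type) [CommGroup G] [Finite G] (S T : Type) [Monoid S] [Monoid T]
        (emb : T →* WrM G N), Function.Injective emb →
        ∀ π : T →* S, Function.Surjective π → ∀ (φ : α → S) (P : Set S),
          GSHLe 1 ({w | (w.map φ).prod ∈ P} : Language α))
    ∧ (∀ (N : Type) [Monoid N] [Fintype N] [DecidableEq N],
      (∀ x : N, ∃ n : ℕ, x ^ n = x ^ (n + 1)) →
      ∀ (φ : α → N) (M : ℕ), 0 < M → ∀ (ι : Type) [Fintype ι] (S : ι → List α → Prop),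
        (∀ i, GSHLe 1 ({w | S i w} : Language α)) → (∀ i c w, S i w → S i (c :: w)) →
        ∀ (κ : Type) [Fintype κ] (F : κ → (ι → Prop) → Prop)
          (Φ : N → (κ → N → α → ℕ) → Prop),
          GSHLe 1 ({w | Φ ((w.map φ).prod)
            (fun k n b => tcount φ n b (fun v => F k (fun i => S i v)) w % M)} : Language α)) :=
  ⟨fun _ _ _ _ _ _ h₁ h₂ _ _ _ _ _ _ _ emb hemb π hπ φ P =>
      gsh_monoid_div (fun ψ Q => gsh_wrm_three h₁ h₂ ψ Q) emb hemb π hπ φ P,
    fun _ _ _ hN _ _ _ _ _ _ _ emb hemb π hπ φ P =>
      gsh_monoid_div (fun ψ Q => gsh_wrm_comm hN ψ Q) emb hemb π hπ φ P,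
    fun _ _ _ _ hN φ M hM _ _ S hS hmono _ _ F Φ => gsh_tcount hN φ M hM S hS hmono F Φ⟩

end Vale.Agent.Results.P329.A1PrefixModCount
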