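import Vale.Agent.Lib.P329.Nilp
import Vale.Agent.Lib.P329.Star
import Vale.Agent.Lib.P329.ElemPrime
import Vale.Agent.Lib.P329.SymFour
import Vale.Agent.Lib.P329.FourStat
import Vale.Agent.Lib.P329.UnionAux

namespace Vale.Agent.Results.P329.A1Union

open Vale.Agent.Lib.P329

/-- **Classes of regular languages of generalized star height at most `1`.** Let `α` be a finite
alphabet. A map `φ` from the letters into a group `G` is the same thing as a monoid morphism from
the words over `α` into `G`; it sends the word `x₁ x₂ ... x_k` to `φ x₁ * φ x₂ * ... * φ x_k`, and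
the languages recognized by `G` through `φ` are the sets `{w | (w.map φ).prod ∈ P}`, `P ⊆ G`.
Each of the following languages has generalized star height at most `1`.

(1) Every language recognized by a finite nilpotent group of class at most three.

(2) Every language recognized by a finite group `G` with a normal subgroup `N` whose elements
commute pairwise such that, for one prime `q`, `g ^ q` and `g * h * g⁻¹ * h⁻¹` lie in `N` for all
`g`, `h`; that is, `N` is abelian and `G / N` is an elementary abelian `q`-group of any rank. This
contains every finite group with an abelian normal subgroup of prime index.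

(3) Every language recognized by the symmetric group `S₄`, the group of all permutations of
`{0, 1, 2, 3}`.

(4) Closure under division and finite direct products: every language recognized by a group `G`
that is a quotient (`π` surjective) of a group `H` that embeds (`emb` injective) into a finite
direct product of finite groups `K i`, each of which is nilpotent of class at most three, or is
as in (2) (with its own prime `q` and subgroup `N`), or is isomorphic to `S₄`.

(5) Every language recognized by a finite nilpotent group of class at most four through a map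
`φ` that sends every letter other than two letters `a` and `b` to the identity.

(6) Star transpositions: for every map `c` from the letters to `{0, ..., n}` and every set `P` of
permutations, the language of the words whose product of the transpositions `(0 c(x))` lies in
`P`.

(7) More generally, the same for letters sent to permutations `σ x` of `{0, ..., n}` that map
every point `y ≠ 0` to `0` or to a point `≥ y`.

(8) Automata with a hub: consider a deterministic automaton on the states `0, ..., N - 1` with
transition function `step`. If the automaton obtained by making the state `0` absorbing is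
counter-free (for every word `w` there is `k` such that `w ^ k` and `w ^ (k + 1)` act in the same
way on all states), then for all states `y`, `t` the language of the words leading from `y` to
`t` in the original automaton. -/
theorem result {α : Type} [Fintype α] [DecidableEq α] :
    (∀ (G : Type) [Group G] [Finite G] [Group.IsNilpotent G], Group.nilpotencyClass G ≤ 3 →
      ∀ (φ : α → G) (P : Set G), GSHLe 1 ({w | (w.map φ).prod ∈ P} : Language α))
    ∧ (∀ (q : ℕ), q.Prime → ∀ (G : Type) [Group G] [Finite G] (N : Subgroup G) [N.Normal],
      (∀ a ∈ N, ∀ b ∈ N, a * b = b * a) → (∀ g : G, g ^ q ∈ N) →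
      (∀ g h : G, g * h * g⁻¹ * h⁻¹ ∈ N) → ∀ (φ : α → G) (P : Set G),
        GSHLe 1 ({w | (w.map φ).prod ∈ P} : Language α))
    ∧ (∀ (φ : α → Equiv.Perm (Fin 4)) (P : Set (Equiv.Perm (Fin 4))),
      GSHLe 1 ({w | (w.map φ).prod ∈ P} : Language α))
    ∧ (∀ (ι : Type) [Fintype ι] (K : ι → Type) [∀ i, Group (K i)] [∀ i, Finite (K i)],
      (∀ i, (∃ _ : Group.IsNilpotent (K i), Group.nilpotencyClass (K i) ≤ 3)
        ∨ (∃ (q : ℕ) (N : Subgroup (K i)), q.Prime ∧ N.Normal
            ∧ (∀ a ∈ N, ∀ b ∈ N, a * b = b * a) ∧ (∀ g : K i, g ^ q ∈ N)
            ∧ (∀ g h : K i, g * h * g⁻¹ * h⁻¹ ∈ N))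
        ∨ Nonempty (K i ≃* Equiv.Perm (Fin 4))) →
      ∀ (G H : Type) [Group G] [Group H] (emb : H →* (∀ i, K i)), Function.Injective emb →
        ∀ π : H →* G, Function.Surjective π → ∀ (φ : α → G) (P : Set G),
          GSHLe 1 ({w | (w.map φ).prod ∈ P} : Language α))
    ∧ (∀ (G : Type) [Group G] [Finite G] [Group.IsNilpotent G], Group.nilpotencyClass G ≤ 4 →
      ∀ (a b : α) (φ : α → G), (∀ z : α, z ≠ a → z ≠ b → φ z = 1) → ∀ P : Set G,
        GSHLe 1 ({w | (w.map φ).prod ∈ P} : Language α))
    ∧ (∀ (n : ℕ) (c : α → Fin (n + 1)) (P : Set (Equiv.Perm (Fin (n + 1)))),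
        GSHLe 1 ({w | (w.map (fun x => Equiv.swap (0 : Fin (n + 1)) (c x))).prod ∈ P}
          : Language α))
    ∧ (∀ (n : ℕ) (σ : α → Equiv.Perm (Fin (n + 1))),
        (∀ (x : α) (y : Fin (n + 1)), y ≠ 0 → σ x y = 0 ∨ y ≤ σ x y) →
        ∀ P : Set (Equiv.Perm (Fin (n + 1))),
          GSHLe 1 ({w | (w.map σ).prod ∈ P} : Language α))
    ∧ (∀ (N : ℕ) (step : ℕ → α → ℕ),
        (∀ w : List α, ∃ k : ℕ, ∀ y, y < N →
          List.foldl (fun z a => if z = 0 then 0 else step z a) y (List.replicate k w).flatten =
            List.foldl (fun z a => if z = 0 then 0 else step z a) y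
              (List.replicate (k + 1) w).flatten) →
        (∀ y a, y < N → step y a < N) →
        ∀ y t : ℕ, y < N → GSHLe 1 ({w | List.foldl step y w = t} : Language α)) :=
  ⟨fun _ _ _ _ hG φ P => gsh_class_three hG φ P,
    fun q hq _ _ _ N _ hcomm hpow hab φ P => elem_prime_finite q hq N hcomm hpow hab φ P,
    fun φ P => sym_four φ P,
    fun _ _ K _ _ hK _ _ _ _ emb hemb π hπ φ P =>
      good_div K (fun i => by
        rcases hK i with ⟨hn, hc⟩ | ⟨q, N, hq, hN, hcomm, hpow, hab⟩ | ⟨⟨e⟩⟩
        · exact fun φ P => gsh_class_three hc φ P
        · exact fun φ P => elem_prime_finite q hq N hcomm hpow hab φ P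
        · exact good_of_mulEquiv e (fun φ P => sym_four φ P)) emb hemb π hπ φ P,
    fun _ _ _ _ hG a b φ hφ P => gsh_class_four_two hG a b φ hφ P,
    fun n c P => star_gsh_set n c P, fun n σ hσ P => perm_gsh_set n σ hσ P,
    fun N step haper hbound y t hy => gsh_run_aper N step haper hbound y t hy⟩

end Vale.Agent.Results.P329.A1Union
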