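import Vale.Agent.Lib.P329.SymFour

namespace Vale.Agent.Results.P329.A2SymmetricFour

open Vale.Agent.Lib.P329

/-- **Every language recognized by the symmetric group `S₄` has generalized star height at
most `1`.** Let `α` be a finite alphabet.

(1) For every map `φ` from the letters into the group of all permutations of `{0, 1, 2, 3}`
(multiplied by composition), i.e. for every monoid morphism from the words over `α` into `S₄`,
and every set `P` of permutations, the language of all words `x₁ x₂ ... x_k` with
`φ x₁ * φ x₂ * ... * φ x_k ∈ P` has generalized star height at most `1`.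

(2) The same holds for every group `G` that is a quotient (`π` surjective) of a group `H` that
embeds (`ι` injective) into a direct power `S₄ ^ n`, for every map `φ` from the letters into `G`
and every subset `P` of `G`. -/
theorem result {α : Type} [Fintype α] [DecidableEq α] :
    (∀ (φ : α → Equiv.Perm (Fin 4)) (P : Set (Equiv.Perm (Fin 4))),
      GSHLe 1 ({w | (w.map φ).prod ∈ P} : Language α))
    ∧ (∀ (G H : Type) [Group G] [Group H] (n : ℕ) (ι : H →* (Fin n → Equiv.Perm (Fin 4))),
        Function.Injective ι → ∀ π : H →* G, Function.Surjective π → ∀ (φ : α → G) (P : Set G),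
          GSHLe 1 ({w | (w.map φ).prod ∈ P} : Language α)) :=
  ⟨fun φ P => sym_four φ P, fun _ _ _ _ n ι hι π hπ φ P => sym_four_div n ι hι π hπ φ P⟩

end Vale.Agent.Results.P329.A2SymmetricFour
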