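import Vale.Agent.Lib.P329.ThreeLevel
import Vale.Agent.Lib.P329.Nilp

namespace Vale.Agent.Results.P329.A2ThreeLevel

open Vale.Agent.Lib.P329

/-- **Star-free conditions on top of modular counters on top of a counter-free automaton have
generalized star height at most `1`.** Let `α` be a finite alphabet.

(1) Let `step` be a deterministic automaton on the states `0, ..., K - 1` that is counter-free
(every word `w` acts on the states with `w ^ k = w ^ (k + 1)` for some `k`), and let `M ≥ 1`.
The cascade `cStep` has as states the pairs (state of `step`, a counter modulo `M` for every pair
of a state `q` and a letter `b`); reading a letter `x` in the state `y` moves `y` by `step` and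
adds one to the counter of `(y, x)`. So, started in `st0`, the cascade knows before each position
of a word the state of `step` and, for all `q` and `b`, the number modulo `M` of the earlier
positions that carry `b` and were read in the state `q` (plus the initial counters). Annotate
every letter of a word with the state of the cascade just before it (`annot`). Then for every
star-free language `K'` over the annotated alphabet, the language of all words whose annotation
lies in `K'` has generalized star height at most `1`.

(2) Cascade closure in general: if all path languages `{w | w leads from q to q'}` of a
deterministic automaton on a finite state set have generalized star height at most `1`, then for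
every star-free language `K'` over the annotated alphabet the language of all words whose
annotation by the states of this automaton lies in `K'` has generalized star height at most `1`.

(3) In particular for the automaton of right multiplication in a finite nilpotent group of class
at most three, for every map `φ` from the letters into the group. -/
theorem result {α : Type} [Fintype α] [DecidableEq α] :
    (∀ (K : ℕ) (step : ℕ → α → ℕ) (hb : ∀ y a, y < K → step y a < K),
        (∀ w : List α, ∃ k : ℕ, ∀ y, y < K →
          List.foldl step y (List.replicate k w).flatten =
            List.foldl step y (List.replicate (k + 1) w).flatten) →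
        ∀ (M : ℕ) (hM : 0 < M) (st0 : CState α K M) (K' : Language (α × CState α K M)),
          GSHLe 0 K' →
          GSHLe 1 ({w | annot (cStep K M hM step hb) st0 w ∈ K'} : Language α))
    ∧ (∀ (Q : Type) [Fintype Q] (step : Q → α → Q),
        (∀ q q' : Q, GSHLe 1 ({w | w.foldl step q = q'} : Language α)) →
        ∀ (K' : Language (α × Q)), GSHLe 0 K' → ∀ q0 : Q,
          GSHLe 1 ({w | annot step q0 w ∈ K'} : Language α))
    ∧ (∀ (G : Type) [Group G] [Finite G] [Group.IsNilpotent G], Group.nilpotencyClass G ≤ 3 →
        ∀ (φ : α → G) (K' : Language (α × G)), GSHLe 0 K' → ∀ g0 : G,
          GSHLe 1 ({w | annot (fun g x => g * φ x) g0 w ∈ K'} : Language α)) := by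
  refine ⟨fun K step hb hcf M hM st0 K' hK' => gsh_three_level K step hb hcf M hM st0 K' hK',
    fun Q _ step hrun K' hK' q0 => gsh_annot step hrun K' hK' q0, ?_⟩
  intro G _ _ _ hG φ K' hK' g0
  have := Fintype.ofFinite G
  exact gsh_annot_group φ (fun P => gsh_class_three hG φ P) K' hK' g0

end Vale.Agent.Results.P329.A2ThreeLevel
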