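import Vale.Agent.Lib.P329.MetaStat

namespace Vale.Agent.Results.P329.A3ClassFourMetabelian

open Vale.Agent.Lib.P329

/-- **Metabelian nilpotent groups of class at most four, every alphabet.** Let `α` be a finite
alphabet, `G` a finite nilpotent group whose nilpotency class (`Group.nilpotencyClass G`, the
length of its lower central series) is at most `4` and whose commutator subgroup
(`commutator G`, the subgroup generated by all commutators) is abelian, and `φ` a map from the
letters into `G`. Such a map is the same thing as a monoid morphism from the words over `α`
into `G`: it sends the word `x₁ x₂ ... x_k` to `φ x₁ * φ x₂ * ... * φ x_k = (w.map φ).prod`, and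
the languages recognized by `G` through `φ` are the sets `{w | (w.map φ).prod ∈ P}`, `P ⊆ G`.

Every such language has generalized star height at most one. -/
theorem result {α : Type} [Fintype α] {G : Type} [Group G] [Finite G] [Group.IsNilpotent G]
    (hG : Group.nilpotencyClass G ≤ 4)
    (hmet : ∀ x ∈ commutator G, ∀ y ∈ commutator G, x * y = y * x)
    (φ : α → G) (P : Set G) :
    GSHLe 1 ({w : List α | (w.map φ).prod ∈ P} : Language α) := by
  classical
  exact gsh_meta_four hG hmet φ P

end Vale.Agent.Results.P329.A3ClassFourMetabelian
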