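import Vale.Agent.Lib.P329.FourStat

namespace Vale.Agent.Results.P329.A3ClassFourTwoLetters

open Vale.Agent.Lib.P329

/-- **Nilpotent groups of class at most four, two letters.** Let `α` be a finite alphabet, `G` a
finite nilpotent group whose nilpotency class (`Group.nilpotencyClass G`, the length of its
lower central series) is at most `4`, and `φ` a map from the letters into `G`. Such a map is the
same thing as a monoid morphism from the words over `α` into `G`: it sends the word
`x₁ x₂ ... x_k` to `φ x₁ * φ x₂ * ... * φ x_k = (w.map φ).prod`, and the languages recognized by
`G` through `φ` are the sets `{w | (w.map φ).prod ∈ P}`, `P ⊆ G`.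

If `φ` sends every letter other than two letters `a` and `b` to the identity, then every
language recognized by `G` through `φ` has generalized star height at most one. In particular
this holds for every language over a two-letter alphabet that is recognized by a finite
nilpotent group of class at most four. -/
theorem result {α : Type} [Fintype α] {G : Type} [Group G] [Finite G] [Group.IsNilpotent G]
    (hG : Group.nilpotencyClass G ≤ 4) (a b : α) (φ : α → G)
    (hφ : ∀ z : α, z ≠ a → z ≠ b → φ z = 1) (P : Set G) :
    GSHLe 1 ({w : List α | (w.map φ).prod ∈ P} : Language α) := by
  classical
  exact gsh_class_four_two hG a b φ hφ P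

end Vale.Agent.Results.P329.A3ClassFourTwoLetters
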