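import Vale.Agent.Lib.P329.ElemPrime

namespace Vale.Agent.Results.P329.AbelianByElemPrime

open Vale.Agent.Lib.P329

/-- **Every language recognized by a finite group that is abelian by an elementary abelian
`q`-group, `q` any prime, has generalized star height at most `1`.** Let `α` be a finite
alphabet and `q` a prime.

(1) Let `G` be a finite group with a normal subgroup `N` whose elements commute pairwise, such
that `g ^ q` and `g * h * g⁻¹ * h⁻¹` lie in `N` for all `g`, `h` in `G`; that is, `N` is abelian
and `G / N` is an elementary abelian `q`-group (of any rank; rank one is the case of an abelian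
normal subgroup of index `q`). For every map `φ` from the letters into `G`, i.e. for every
monoid morphism from the words over `α` into `G`, and every subset `P` of `G`, the language of
all words `x₁ x₂ ... x_k` with `φ x₁ * φ x₂ * ... * φ x_k ∈ P` has generalized star height at
most `1`.

(2) More generally, the same holds for every group `G` (finite or not) with a map `ψ` into
`(Z/q)^n` such that `ψ (g * h) = ψ g + ψ h`, for which the elements `a` with `ψ a = 0` commute
pairwise and satisfy `a ^ m = 1` for one fixed `m > 0`.

Examples: all groups of order `p * q` and the other Frobenius groups `Z_p ⋊ Z_q`, the dihedral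
groups, `A₄`, `A₄ × A₄`, and the wreath products of `Z_n` by `(Z_q)^k`. -/
theorem result {α : Type} [Fintype α] [DecidableEq α] :
    (∀ q : ℕ, q.Prime → ∀ (G : Type) [Group G] [Finite G] (N : Subgroup G) [N.Normal],
      (∀ a ∈ N, ∀ b ∈ N, a * b = b * a) → (∀ g : G, g ^ q ∈ N) →
      (∀ g h : G, g * h * g⁻¹ * h⁻¹ ∈ N) → ∀ (φ : α → G) (P : Set G),
        GSHLe 1 ({w | (w.map φ).prod ∈ P} : Language α))
    ∧ (∀ q : ℕ, q.Prime → ∀ (n : ℕ) (G : Type) [Group G] (ψ : G → Fin n → ZMod q),
      (∀ g h : G, ψ (g * h) = ψ g + ψ h) →
      (∀ a b : G, ψ a = 0 → ψ b = 0 → a * b = b * a) →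
      ∀ m : ℕ, 0 < m → (∀ a : G, ψ a = 0 → a ^ m = 1) → ∀ (φ : α → G) (P : Set G),
        GSHLe 1 ({w | (w.map φ).prod ∈ P} : Language α)) :=
  ⟨fun q hq _ _ _ N _ hcomm hpow hab φ P => elem_prime_finite q hq N hcomm hpow hab φ P,
    fun q hq _ _ _ ψ hψ hcomm m hm hexp φ P => elem_prime_map q hq ψ hψ hcomm m hm hexp φ P⟩

end Vale.Agent.Results.P329.AbelianByElemPrime
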