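import Vale.Agent.Lib.P329.ExtThree
import Vale.Agent.Lib.P329.Nilp
import Vale.Agent.Lib.P329.Star

namespace Vale.Agent.Results.P329.AllClasses

open Vale.Agent.Lib.P329

/-- **Classes of regular languages of generalized star height at most `1`.** Let `α` be a finite
alphabet. A map `φ` from the letters into a group `G` is the same thing as a monoid morphism from
the words over `α` into `G`; it sends the word `x₁ x₂ ... x_k` to `φ x₁ * φ x₂ * ... * φ x_k`, and
the languages recognized by `G` through `φ` are the sets `{w | (w.map φ).prod ∈ P}`, `P ⊆ G`.

(1) Every language recognized by a finite nilpotent group of class at most three has generalized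
star height at most `1`.

(2) Every language recognized by the alternating group `A₄` has generalized star height at
most `1`.

(3) The same for every group (finite or not) having a normal subgroup of index three all of
whose elements square to the identity.

(4) Star transpositions: for every map `c` from the letters to `{0, ..., n}` and every set `P` of
permutations, the language of the words whose product of the transpositions `(0 c(x))` lies in
`P` has generalized star height at most `1`.

(5) More generally, the same for letters sent to permutations `σ x` of `{0, ..., n}` that map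
every point `y ≠ 0` to `0` or to a point `≥ y`.

(6) Automata with a hub: consider a deterministic automaton on the states `0, ..., N - 1` with
transition function `step`. If the automaton obtained by making the state `0` absorbing is
counter-free (for every word `w` there is `k` such that `w ^ k` and `w ^ (k + 1)` act in the same
way on all states), then for all states `y`, `t` the language of the words leading from `y` to
`t` in the original automaton has generalized star height at most `1`.

(7) Every language that is a union of classes of the congruence that identifies two words when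
their numbers of occurrences of `u` as a scattered subword agree modulo `m`, for all words `u`
of length at most three, has generalized star height at most `1`. -/
theorem result {α : Type} [Fintype α] [DecidableEq α] :
    (∀ (G : Type) [Group G] [Finite G] [Group.IsNilpotent G], Group.nilpotencyClass G ≤ 3 →
      ∀ (φ : α → G) (P : Set G), GSHLe 1 ({w | (w.map φ).prod ∈ P} : Language α))
    ∧ (∀ (φ : α → alternatingGroup (Fin 4)) (P : Set (alternatingGroup (Fin 4))),
      GSHLe 1 ({w | (w.map φ).prod ∈ P} : Language α))
    ∧ (∀ (G : Type) [Group G] (N : Subgroup G) [N.Normal], (∀ v ∈ N, v * v = 1) →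
        N.index = 3 → ∀ (φ : α → G) (P : Set G),
          GSHLe 1 ({w | (w.map φ).prod ∈ P} : Language α))
    ∧ (∀ (n : ℕ) (c : α → Fin (n + 1)) (P : Set (Equiv.Perm (Fin (n + 1)))),
        GSHLe 1 ({w | (w.map (fun x => Equiv.swap (0 : Fin (n + 1)) (c x))).prod ∈ P}
          : Language α))
    ∧ (∀ (n : ℕ) (σ : α → Equiv.Perm (Fin (n + 1))),
        (∀ (x : α) (y : Fin (n + 1)), y ≠ 0 → σ x y = 0 ∨ y ≤ σ x y) →
        ∀ P : Set (Equiv.Perm (Fin (n + 1))),
          GSHLe 1 ({w | (w.map σ).prod ∈ P} : Language α))
    ∧ (∀ (N : ℕ) (step : ℕ → α → ℕ),
        (∀ w : List α, ∃ k : ℕ, ∀ y, y < N →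
          List.foldl (fun z a => if z = 0 then 0 else step z a) y (List.replicate k w).flatten =
            List.foldl (fun z a => if z = 0 then 0 else step z a) y
              (List.replicate (k + 1) w).flatten) →
        (∀ y a, y < N → step y a < N) →
        ∀ y t : ℕ, y < N → GSHLe 1 ({w | List.foldl step y w = t} : Language α))
    ∧ (∀ (m : ℕ), 0 < m → ∀ L : Language α,
        (∀ w w' : List α,
          (∀ u : List α, u.length ≤ 3 → w.sublists.count u % m = w'.sublists.count u % m) →
          (w ∈ L ↔ w' ∈ L)) →
        GSHLe 1 L) := by
  refine ⟨fun G _ _ _ hG φ P => gsh_class_three hG φ P, ?_,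
    fun G _ N _ hN hidx φ P => ext_two_three N hN hidx φ P,
    fun n c P => star_gsh_set n c P, fun n σ hσ P => perm_gsh_set n σ hσ P,
    fun N step haper hbound y t hy => gsh_run_aper N step haper hbound y t hy,
    fun m hm L hL => gsh_saturated_three m hm L hL⟩
  intro φ P
  have h := alt_four (fun x => (φ x : Equiv.Perm (Fin 4))) (fun x => (φ x).2)
    ((fun g : alternatingGroup (Fin 4) => (g : Equiv.Perm (Fin 4))) '' P)
  refine h.of_iff (fun w => ?_)
  have hprod : (w.map (fun x => (φ x : Equiv.Perm (Fin 4)))).prod =
      (((w.map φ).prod : alternatingGroup (Fin 4)) : Equiv.Perm (Fin 4)) := by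
    induction w with
    | nil => simp
    | cons x w ih => simp [ih]
  show (w.map (fun x => (φ x : Equiv.Perm (Fin 4)))).prod ∈
      ((fun g : alternatingGroup (Fin 4) => (g : Equiv.Perm (Fin 4))) '' P) ↔
    (w.map φ).prod ∈ P
  rw [hprod]
  constructor
  · rintro ⟨g, hg, hgv⟩
    have hgg : g = (w.map φ).prod := Subtype.ext hgv
    rw [← hgg]
    exact hg
  · intro hw
    exact ⟨_, hw, rfl⟩

end Vale.Agent.Results.P329.AllClasses
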