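import Vale.Agent.Lib.P329.ExtThree

namespace Vale.Agent.Results.P329.AlternatingFour

open Vale.Agent.Lib.P329

/-- **Every language recognized by the alternating group `A₄` has generalized star height at
most `1`.** Let `α` be a finite alphabet.

(1) For every map `φ` from the letters into the group `A₄` (the even permutations of
`{0, 1, 2, 3}`, multiplied by composition), i.e. for every monoid morphism from the words over
`α` into `A₄`, and every subset `P` of `A₄`, the language of all words `x₁ x₂ ... x_k` with
`φ x₁ * φ x₂ * ... * φ x_k ∈ P` has generalized star height at most `1`.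

(2) More generally, the same holds for every group `G` (finite or not) that has a normal
subgroup `N` of index three all of whose elements square to the identity (for `A₄` the subgroup
`N` is the Klein four-group), every map `φ` from the letters into `G` and every subset `P`
of `G`. -/
theorem result {α : Type} [Fintype α] [DecidableEq α] :
    (∀ (φ : α → alternatingGroup (Fin 4)) (P : Set (alternatingGroup (Fin 4))),
      GSHLe 1 ({w | (w.map φ).prod ∈ P} : Language α))
    ∧ (∀ (G : Type) [Group G] (N : Subgroup G) [N.Normal], (∀ v ∈ N, v * v = 1) →
        N.index = 3 → ∀ (φ : α → G) (P : Set G),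
          GSHLe 1 ({w | (w.map φ).prod ∈ P} : Language α)) := by
  refine ⟨fun φ P => ?_, fun G _ N _ hN hidx φ P => ext_two_three N hN hidx φ P⟩
  have h := alt_four (fun x => (φ x : Equiv.Perm (Fin 4))) (fun x => (φ x).2)
    ((fun g : alternatingGroup (Fin 4) => (g : Equiv.Perm (Fin 4))) '' P)
  refine h.of_iff (fun w => ?_)
  have hprod : (w.map (fun x => (φ x : Equiv.Perm (Fin 4)))).prod =
      (((w.map φ).prod : alternatingGroup (Fin 4)) : Equiv.Perm (Fin 4)) := by
    induction w with
    | nil => simp
    | cons x w ih => simp [ih]
  show (w.map (fun x => (φ x : Equiv.Perm (Fin 4)))).prod ∈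
      ((fun g : alternatingGroup (Fin 4) => (g : Equiv.Perm (Fin 4))) '' P) ↔
    (w.map φ).prod ∈ P
  rw [hprod]
  constructor
  · rintro ⟨g, hg, hgv⟩
    have hgg : g = (w.map φ).prod := Subtype.ext hgv
    rw [← hgg]
    exact hg
  · intro hw
    exact ⟨_, hw, rfl⟩

end Vale.Agent.Results.P329.AlternatingFour
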