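import Vale.Agent.Lib.P329.Nilp

namespace Vale.Agent.Results.P329.NilpotentClassThree

open Vale.Agent.Lib.P329

/-- Every language recognized by a finite nilpotent group of class at most three has
generalized star height at most one.

Here `α` is a finite alphabet, `G` is a finite nilpotent group whose nilpotency class
(`Group.nilpotencyClass G`, the length of its lower central series) is at most `3`, and a
language `L` over `α` is recognized by `G` when there are a monoid morphism `φ` from the free
monoid on `α` (whose elements are the words, `FreeMonoid.ofList w` being the word `w` itself)
to `G` and a subset `P` of `G` such that `L` consists of the words whose image lies in `P`. -/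
theorem result {α : Type} [Fintype α] {G : Type} [Group G] [Finite G] [Group.IsNilpotent G]
    (hG : Group.nilpotencyClass G ≤ 3) (L : Language α)
    (hL : ∃ (φ : FreeMonoid α →* G) (P : Set G),
      ∀ w : List α, w ∈ L ↔ φ (FreeMonoid.ofList w) ∈ P) :
    GSHLe 1 L := by
  classical
  obtain ⟨φ, P, hP⟩ := hL
  exact (gsh_class_three_hom hG φ P).of_iff (fun w => (hP w).symm)

end Vale.Agent.Results.P329.NilpotentClassThree
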