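import Vale.Agent.Lib.P329.Count

namespace Vale.Agent.Results.P329.PrefixCounterCount

open Vale.Agent.Lib.P329

/-- Let `α` be a finite alphabet, `S` a set of letters, `b` a letter outside `S`, and `q, m ≥ 1`.
For all `r` and `k`, the language of the words `w` in which the number of occurrences of `b` that
are preceded by a number of letters from `S` congruent to `r` modulo `q` is congruent to `k`
modulo `m` has generalized star height at most `1`. -/
theorem result {α : Type} [Fintype α] [DecidableEq α] (S : Finset α) (b : α) (hb : b ∉ S)
    (q m : ℕ) (hq : 0 < q) (hm : 0 < m) (r k : ℕ) :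
    GSHLe 1 ({w | occAt S b q r w % m = k % m} : Language α) :=
  gsh_occAt S b hb q m hq hm r k

end Vale.Agent.Results.P329.PrefixCounterCount
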