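import Vale.Agent.Lib.P329.Star

namespace Vale.Agent.Results.P329.StarTranspositions

open Vale.Agent.Lib.P329

/-- Let `α` be a finite alphabet and `n` a natural number; permutations of `{0, ..., n}` are
multiplied by composition (`Equiv.Perm (Fin (n + 1))`).

(1) Star transpositions. Let every letter `x` act as the transposition exchanging `0` and
`c x` (the identity if `c x = 0`). For every set `P` of permutations, the language of all words
`x₁ x₂ ... x_k` whose product of transpositions lies in `P` has generalized star height at most
`1`. When `c` reaches every nonzero point these transpositions generate the whole symmetric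
group, so these are all the languages recognized by that morphism onto it.

(2) More generally the same holds whenever every letter `x` acts as a permutation `σ x` that
sends each point `y ≠ 0` either to `0` or to a point `≥ y`. -/
theorem result {α : Type} [Fintype α] [DecidableEq α] (n : ℕ) :
    (∀ (c : α → Fin (n + 1)) (P : Set (Equiv.Perm (Fin (n + 1)))),
      GSHLe 1 ({w | (w.map (fun x => Equiv.swap (0 : Fin (n + 1)) (c x))).prod ∈ P}
        : Language α))
    ∧ (∀ (σ : α → Equiv.Perm (Fin (n + 1))),
        (∀ (x : α) (y : Fin (n + 1)), y ≠ 0 → σ x y = 0 ∨ y ≤ σ x y) →
        ∀ P : Set (Equiv.Perm (Fin (n + 1))),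
          GSHLe 1 ({w | (w.map σ).prod ∈ P} : Language α)) :=
  ⟨fun c P => star_gsh_set n c P, fun σ hσ P => perm_gsh_set n σ hσ P⟩

end Vale.Agent.Results.P329.StarTranspositions
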