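import Vale.Agent.Lib.P329.Sat

namespace Vale.Agent.Results.P329.SubwordCongruenceThree

open Vale.Agent.Lib.P329

/-- Let `α` be a finite alphabet and `m ≥ 1`. Call two words equivalent when every word `u` of
length at most `3` occurs as a scattered subword the same number of times modulo `m` in both
(`w.sublists.count u` is the number of occurrences of `u` as a subsequence of `w`, counted by
sets of positions). Every language that is a union of classes of this equivalence has
generalized star height at most `1`. -/
theorem result {α : Type} [Fintype α] [DecidableEq α] (m : ℕ) (hm : 0 < m) (L : Language α)
    (hL : ∀ w w' : List α,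
      (∀ u : List α, u.length ≤ 3 → w.sublists.count u % m = w'.sublists.count u % m) →
      (w ∈ L ↔ w' ∈ L)) :
    GSHLe 1 L :=
  gsh_saturated_three m hm L hL

end Vale.Agent.Results.P329.SubwordCongruenceThree
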