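import Vale.Agent.Lib.P329.Three

namespace Vale.Agent.Results.P329.SubwordCountThree

open Vale.Agent.Lib.P329

/-- Let `α` be a finite alphabet, `u` a word of length at most `3` and `m ≥ 1`. For every `r`,
the language of the words `w` in which `u` occurs as a scattered subword (a subsequence, the
occurrences being counted by their sets of positions) a number of times congruent to `r` modulo
`m` has generalized star height at most `1`. Here `w.sublists` is the list of all subsequences
of `w`, one for each set of positions, and `w.sublists.count u` is the number of its entries
equal to `u`. -/
theorem result {α : Type} [Fintype α] [DecidableEq α] (u : List α) (hu : u.length ≤ 3)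
    (m r : ℕ) (hm : 0 < m) :
    GSHLe 1 ({w | w.sublists.count u % m = r % m} : Language α) :=
  subword_three m hm u hu r

end Vale.Agent.Results.P329.SubwordCountThree
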